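import Vale.Agent.Lib.P062.Full.A0_1

set_option maxRecDepth 100000
set_option linter.all false

namespace Vale.Agent.Lib.P062.Full
open Vale.Agent.Lib.P062 Vale.Agent.Lib.P062.V2

theorem alt0 : WinsOutside 377552140924134243829043236999604618715767577239943562813602080305069081450899889938408680652256332003046957653069894880234073178178321855511111150440820872601440589873373138585345694398352149418415080285373315775945890695479296 :=
  winsOutside_of_chk (t := s119177) (by decide +kernel)

end Vale.Agent.Lib.P062.Full
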