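import Vale.Agent.Lib.P062.Full.A6_0

set_option maxRecDepth 100000
set_option linter.all false

namespace Vale.Agent.Lib.P062.Full
open Vale.Agent.Lib.P062 Vale.Agent.Lib.P062.V2

theorem alt6 : WinsOutside 3447282669415066924503046814355052271891594546256180236258431866820495296912197269533068359349699966049511167140051170608687401785478017416061407969725472242065277061512179164713130783010900185039408342004547096412160 :=
  winsOutside_of_chk (t := s26219) (by decide +kernel)

end Vale.Agent.Lib.P062.Full
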