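import Vale.Agent.Lib.P062.Full.Alt0
import Vale.Agent.Lib.P062.Full.Alt1
import Vale.Agent.Lib.P062.Full.Alt2
import Vale.Agent.Lib.P062.Full.Alt3
import Vale.Agent.Lib.P062.Full.Alt4
import Vale.Agent.Lib.P062.Full.Alt5
import Vale.Agent.Lib.P062.Full.Alt6
import Vale.Agent.Lib.P062.Full.Alt7

set_option linter.all false

namespace Vale.Agent.Lib.P062.Full
open Vale.Agent.Lib.P062 Vale.Agent.Lib.P062.V2

/-- No reply is excepted. -/
def exc (_ : Cell) : Bool := false

theorem allReplies (d : Cell) (hd : exc d = false) : MakerWins {((0 : Int), (0 : Int))} {d} := by
  refine wins_of_cover exc 377552140924134243829043236999604618715767577239943562813602080305069081450899889938408680652256332003046957653069894880234073178178321855511111150440820872601440589873373138585345694398352149418415080285373315775945890695479296 [377552140924134243829043236999604618715767577239943562813602080305069081450899889938408680652256332003046957653069894880234073178178321855511111150440820872601440589873373138585345694398352149418415080285373315775945890695479296,11844773053752287760550877970622068280162926122966719125928809142294319612543761534982805103204482254955996803688260626591610366126841837945017772714850920321004263048649645257286694063662318830070058852102790978273706913038336,497632485919085462618728085187878992717499200358126768024548232435667931841453958589586376821235513535287229438554167074625352025279008502727666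8541618481322611753137249773393715725749517652495867302666829824,86871523164243179221607939444220004063918955364530358852777790075887702983395865457830799647245314385077321525357510123578318837938851542995483198816776183453709400329776897228179504758124792651361886035084774234652672,20226352653522784640459955482349386893469552137016952926156963448536893813596260791330920374511245748158912077423129202069201875427667508774169250539065943707875557547247887996935497153456551651547719009304576,5056588164567368715551902139650878993974174994473098125018953053130857859826250307956044159117626665256442887636812351284197681169066457062341086535102481563422048555140071168594844972602155864795957705048064,3447282669415066924503046814355052271891594546256180236258431866820495296912197269533068359349699966049511167140051170608687401785478017416061407969725472242065277061512179164713130783010900185039408342004547096412160,236895460946806839725487788537820699943238361621509936017177289191528325770232989537098386208106217707995771344050731243071023621631901051632928640451729580898656554717672334124566920816379244805616639770555250564974100799815680] alt0 ?_ (by decide +kernel) (by decide +kernel) d hd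
  intro z hz
  simp only [List.mem_cons, List.not_mem_nil, or_false] at hz
  rcases hz with rfl | rfl | rfl | rfl | rfl | rfl | rfl | rfl
  · exact alt0
  · exact alt1
  · exact alt2
  · exact alt3
  · exact alt4
  · exact alt5
  · exact alt6
  · exact alt7

theorem snakyWin : MakerWins ∅ ∅ :=
  makerWins_empty (fun d => allReplies d rfl)

end Vale.Agent.Lib.P062.Full
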